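import Vale.Agent.P032.R2.H264.Mem
import Vale.Agent.P032.R2.H609.Rule2
import Vale.Agent.P032.R2.H609.WFam

/-!
# P032: rule 2 in the form of the certificates

`z = {ab|cd}` a two-pair point, all orders at most four.  `palN a b c d e f n`, `n < 4`: the palettes
`abe`, `abf`, `cde`, `cdf`; the palettes number `n` and `3 - n` are complementary.

* `Irr.rule2_pal`: if the palette number `3 - n` is present on the circle of `z`, then there are at most
  two points with the palette number `n`;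
* `Irr.vis_pal`: at such a point the two limit letters are different;
* `evc_nat`: the number of events of an instant with natural numbers as positions.
-/

set_option autoImplicit false

open Set Filter Topology Metric

noncomputable section

namespace Vale.Agent.P032.Six

open S5.H767

variable {U : Fin 6 → Set ℂ} {T : ℂ → Set (Fin 6)} {z : ℂ} {a b c d e f : Fin 6}

/-- the palettes of the three-coloured ends: `abe`, `abf`, `cde`, `cdf` -/
def palN (a b c d e f : Fin 6) (n : ℕ) : Set (Fin 6) :=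
  match n with
  | 0 => {a, b, e}
  | 1 => {a, b, f}
  | 2 => {c, d, e}
  | _ => {c, d, f}

theorem nodup_cdabfe (nd : [a, b, c, d, e, f].Nodup) : [c, d, a, b, f, e].Nodup :=
  nodup_swap56 (nodup_swap609 nd)

/-- **rule 2**, all palettes -/
theorem Irr.rule2_pal (h : Irr U T) (h4 : ∀ x, (T x).ncard ≤ 4) (hz : DPt T z a b c d)
    (nd : [a, b, c, d, e, f].Nodup) {n : ℕ} (hn : n < 4)
    (hp : ∃ q, dist q z = 1 ∧ T q = palN a b c d e f (3 - n)) :
    ({q | T q = palN a b c d e f n} ∩ sphere z 1).Finite ∧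
      ({q | T q = palN a b c d e f n} ∩ sphere z 1).ncard ≤ 2 := by
  have key : ∀ {a b c d e f : Fin 6}, DPt T z a b c d → [a, b, c, d, e, f].Nodup →
      (∃ q, dist q z = 1 ∧ T q = {c, d, f}) →
      ({q | T q = {a, b, e}} ∩ sphere z 1).Finite ∧
        ({q | T q = {a, b, e}} ∩ sphere z 1).ncard ≤ 2 := by
    rintro a b c d e f hz nd ⟨q, hq, hTq⟩
    have h1 := h.rule2_ncard h4 hz nd hq hTq
    have h2 : ({q | T q = {a, b, e}} ∩ sphere z 1 : Set ℂ) =
        {x : ℂ | dist x z = 1 ∧ T x = {a, b, e}} := by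
      ext x
      exact ⟨fun hx => ⟨mem_sphere.1 hx.2, hx.1⟩, fun hx => ⟨hx.2, mem_sphere.2 hx.1⟩⟩
    rw [h2]
    exact h1
  have h5 : n = 0 ∨ n = 1 ∨ n = 2 ∨ n = 3 := by omega
  rcases h5 with rfl | rfl | rfl | rfl
  · exact key hz nd hp
  · exact key hz (nodup_swap56 nd) hp
  · exact key hz.swap (nodup_swap609 nd) hp
  · exact key hz.swap (nodup_cdabfe nd) hp

/-- **visible ends**, all palettes -/
theorem Irr.vis_pal (h : Irr U T) (h4 : ∀ x, (T x).ncard ≤ 4) (hz : DPt T z a b c d)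
    (nd : [a, b, c, d, e, f].Nodup) {n : ℕ} (hn : n < 4)
    (hp : ∃ q, dist q z = 1 ∧ T q = palN a b c d e f (3 - n)) {v : ℝ}
    (hv : T (pt z v) = palN a b c d e f n) {l m : Fin 4}
    (hl : LF T z a b c d e f v l) (hm : RF T z a b c d e f v m) :
    ¬ (l.val = 2 + n / 2 ∧ m.val = 2 + n / 2) ∧ ¬ (l.val = n % 2 ∧ m.val = n % 2) := by
  have h5 : n = 0 ∨ n = 1 ∨ n = 2 ∨ n = 3 := by omega
  rcases h5 with rfl | rfl | rfl | rfl
  · obtain ⟨q, hq, hTq⟩ := hp
    have h1 := h.f_vis hz nd hv hq hTq (h4 _) hl hm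
    have : ∀ l m : Fin 4, (l = 2 ∧ m = 0) ∨ (l = 0 ∧ m = 2) →
        ¬ (l.val = 2 + 0 / 2 ∧ m.val = 2 + 0 / 2) ∧ ¬ (l.val = 0 % 2 ∧ m.val = 0 % 2) := by decide
    exact this l m h1
  · obtain ⟨q, hq, hTq⟩ := hp
    have h1 := h.f_vis hz (nodup_swap56 nd) hv hq hTq (h4 _) hl.sw56 hm.sw56
    have : ∀ l m : Fin 4, (sw01 l = 2 ∧ sw01 m = 0) ∨ (sw01 l = 0 ∧ sw01 m = 2) →
        ¬ (l.val = 2 + 1 / 2 ∧ m.val = 2 + 1 / 2) ∧ ¬ (l.val = 1 % 2 ∧ m.val = 1 % 2) := by decide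
    exact this l m h1
  · obtain ⟨q, hq, hTq⟩ := hp
    have h1 := h.f_vis hz.swap (nodup_swap609 nd) hv hq hTq (h4 _) hl.sw23 hm.sw23
    have : ∀ l m : Fin 4, (sw23 l = 2 ∧ sw23 m = 0) ∨ (sw23 l = 0 ∧ sw23 m = 2) →
        ¬ (l.val = 2 + 2 / 2 ∧ m.val = 2 + 2 / 2) ∧ ¬ (l.val = 2 % 2 ∧ m.val = 2 % 2) := by decide
    exact this l m h1
  · obtain ⟨q, hq, hTq⟩ := hp
    have h1 := h.f_vis hz.swap (nodup_cdabfe nd) hv hq hTq (h4 _) hl.sw23.sw56 hm.sw23.sw56
    have : ∀ l m : Fin 4, (sw01 (sw23 l) = 2 ∧ sw01 (sw23 m) = 0) ∨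
        (sw01 (sw23 l) = 0 ∧ sw01 (sw23 m) = 2) →
        ¬ (l.val = 2 + 3 / 2 ∧ m.val = 2 + 3 / 2) ∧ ¬ (l.val = 3 % 2 ∧ m.val = 3 % 2) := by decide
    exact this l m h1

end Vale.Agent.P032.Six

namespace Vale.Agent.P032.S5.H767

/-- the number of events of an instant, natural numbers as positions -/
theorem evc_nat {E : Set (ℝ × Fin 6)} {u : ℝ} {P : ℕ → Prop}
    (hP : ∀ k : Fin 6, P k.val ↔ (u, k) ∈ E) : {k : ℕ | k < 6 ∧ P k}.ncard = evc E u := by
  have h1 : {k : ℕ | k < 6 ∧ P k} = Fin.val '' evp E u := by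
    ext n
    constructor
    · rintro ⟨h2, h3⟩
      exact ⟨⟨n, h2⟩, (hP ⟨n, h2⟩).1 h3, rfl⟩
    · rintro ⟨k, hk, rfl⟩
      exact ⟨k.isLt, (hP k).2 hk⟩
  rw [h1]
  exact Set.ncard_image_of_injective _ Fin.val_injective

end Vale.Agent.P032.S5.H767
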