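import Vale.Agent.P032.R2.H741.TpF
import Vale.Agent.P032.R2.H413.RuleC

/-!
# P032: the fields of the numbers of points

`SemC`: what is used about the atoms `C`, `E`, `P`, `N`, `X` at the instant `u`.  Conclusions: the fields
`cntmono` of `SF`, `E`, `absent`, `pres`, `cnt`, `vis` of `TF`, `cnt0` of `IF`, `cntend1`, `cntend2`,
`cntend` of `BF`.
-/

set_option autoImplicit false

open Set Filter Topology Metric

noncomputable section

namespace Vale.Agent.P032.R2.H413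

open Vale.Agent.P032.Six Vale.Agent.P032.S5.H767 Vale.Agent.P032.R2.H741.Tp

/-- the palette number `a` of the ring `r` -/
def pal (G : RD) (x : ℕ → Fin 6) (r a : ℕ) : Set (Fin 6) :=
  palN (x (G.sg r 0)) (x (G.sg r 1)) (x (G.sg r 2)) (x (G.sg r 3)) (x (G.sg r 4)) (x (G.sg r 5)) a

theorem mem_pal {G : RD} {x : ℕ → Fin 6} {r a : ℕ} (ha : a < 4) {y : Fin 6} :
    y ∈ pal G x r a ↔ ∃ j ∈ tc G r a, y = x j := by
  have h5 : a = 0 ∨ a = 1 ∨ a = 2 ∨ a = 3 := by omega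
  rcases h5 with rfl | rfl | rfl | rfl <;> simp [pal, palN, tc, lc]

/-- `x` numbers the six colours -/
structure Num (x : ℕ → Fin 6) : Prop where
  inj : ∀ i < 6, ∀ j < 6, x i = x j → i = j
  sur : ∀ c, ∃ i < 6, x i = c

theorem tc_lt {G : RD} {r a : ℕ} (hsg : ∀ j < 6, G.sg r j < 6) (ha : a < 4) {j : ℕ}
    (hj : j ∈ tc G r a) : j < 6 := by
  have h5 : a = 0 ∨ a = 1 ∨ a = 2 ∨ a = 3 := by omega
  rcases h5 with rfl | rfl | rfl | rfl <;> simp [tc, lc] at hj <;>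
    rcases hj with rfl | rfl | rfl <;> exact hsg _ (by norm_num)

theorem isT_iff {G : RD} {x : ℕ → Fin 6} (hx : Num x) {r a : ℕ} (hsg : ∀ j < 6, G.sg r j < 6)
    (ha : a < 4) {S : Set (Fin 6)} : (∀ i < 6, (x i ∈ S ↔ i ∈ tc G r a)) ↔ S = pal G x r a := by
  constructor
  · intro h
    ext y
    obtain ⟨i, hi, rfl⟩ := hx.sur y
    rw [h i hi, mem_pal ha]
    constructor
    · intro h1
      exact ⟨i, h1, rfl⟩
    · rintro ⟨j, hj, hij⟩
      rw [hx.inj i hi j (tc_lt hsg ha hj) hij]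
      exact hj
  · rintro rfl i hi
    rw [mem_pal ha]
    constructor
    · rintro ⟨j, hj, hij⟩
      rw [hx.inj i hi j (tc_lt hsg ha hj) hij]
      exact hj
    · intro h1
      exact ⟨i, h1, rfl⟩

/-- the events of the palette number `a` of the ring `r` -/
def evN (G : RD) (T : ℂ → Set (Fin 6)) (x : ℕ → Fin 6) (c : ℕ → ℂ) (r a : ℕ) : Set (ℝ × Fin 6) :=
  evA (c r) {q | T q = pal G x r a}

/-- the atoms used here -/
structure SemC (G : RD) (S : Sem) (T : ℂ → Set (Fin 6)) (x : ℕ → Fin 6) (c : ℕ → ℂ)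
    (u0 u : ℝ) : Prop where
  C : ∀ r < G.R, ∀ k : ℕ, k < 6 → ∀ i < 6, (S.C r k i ↔ x i ∈ T (pt (c r) (u + (k : ℝ))))
  E : ∀ r < G.R, ∀ a < 4, ∀ k : ℕ, k < 6 → (S.E r a k ↔ T (pt (c r) (u + (k : ℝ))) = pal G x r a)
  P : ∀ r < G.R, ∀ a < 4, (S.P r a ↔ ∃ q, dist q (c r) = 1 ∧ T q = pal G x r a)
  N0 : ∀ r < G.R, ∀ a < 4, ∀ j < 2, (S.N 0 r a j ↔ j + 1 ≤ nev (evN G T x c r a) u0 u)
  N1 : ∀ r < G.R, ∀ a < 4, ∀ j < 2, (S.N 1 r a j ↔
    j + 1 ≤ nev (evN G T x c r a) u0 u + evc (evN G T x c r a) u)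

/-- what the modes `1, 2, 3` mean -/
structure Mds (G : RD) (T : ℂ → Set (Fin 6)) (x : ℕ → Fin 6) (c : ℕ → ℂ) : Prop where
  one : ∀ r < G.R, ∀ a < 4, G.md r a = 1 → ∀ q, dist q (c r) = 1 → T q ≠ pal G x r a
  two : ∀ r < G.R, ∀ a < 4, G.md r a = 2 → ({q | T q = pal G x r a} ∩ sphere (c r) 1).ncard = 1
  three : ∀ r < G.R, ∀ a < 4, G.md r a = 3 → ({q | T q = pal G x r a} ∩ sphere (c r) 1).ncard = 2
  le : ∀ r < G.R, ∀ a < 4, G.md r a ≤ 4

/-- the world: the centres are two-pair points with the names of the rings, all orders are at most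
four -/
structure WC (G : RD) (U : Fin 6 → Set ℂ) (T : ℂ → Set (Fin 6)) (x : ℕ → Fin 6) (c : ℕ → ℂ) :
    Prop where
  irr : Irr U T
  h4 : ∀ y, (T y).ncard ≤ 4
  num : Num x
  sg : ∀ r < G.R, ∀ j < 6, G.sg r j < 6
  dpt : ∀ r < G.R, DPt T (c r) (x (G.sg r 0)) (x (G.sg r 1)) (x (G.sg r 2)) (x (G.sg r 3))
  nd : ∀ r < G.R, [x (G.sg r 0), x (G.sg r 1), x (G.sg r 2), x (G.sg r 3), x (G.sg r 4),
    x (G.sg r 5)].Nodup

variable {G : RD} {S : Sem} {U : Fin 6 → Set ℂ} {T : ℂ → Set (Fin 6)} {x : ℕ → Fin 6} {c : ℕ → ℂ}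
  {u0 u : ℝ}

/-- the set of the points is finite, with at most two points, if the mode says something -/
theorem WC.fin (W : WC G U T x c) (M : Mds G T x c) {r a : ℕ} (hr : r < G.R) (ha : a < 4)
    (h2 : 2 ≤ G.md r a)
    (hg : G.md r a = 4 → (∃ q, dist q (c r) = 1 ∧ T q = pal G x r a) ∧
      ∃ q, dist q (c r) = 1 ∧ T q = pal G x r (3 - a)) :
    ({q | T q = pal G x r a} ∩ sphere (c r) 1).Finite ∧
      ({q | T q = pal G x r a} ∩ sphere (c r) 1).ncard ≤ 2 := by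
  have h3 := M.le r hr a ha
  have h5 : G.md r a = 2 ∨ G.md r a = 3 ∨ G.md r a = 4 := by omega
  rcases h5 with h5 | h5 | h5
  · have h6 := M.two r hr a ha h5
    exact ⟨Set.finite_of_ncard_ne_zero (by omega), by omega⟩
  · have h6 := M.three r hr a ha h5
    exact ⟨Set.finite_of_ncard_ne_zero (by omega), by omega⟩
  · exact W.irr.rule2_pal W.h4 (W.dpt r hr) (W.nd r hr) ha (hg h5).2

namespace SemC

/-- field `cntmono` of `SF` -/
theorem cntmono (C : SemC G S T x c u0 u) : ∀ r < G.R, ∀ a < 4, S.N 0 r a 1 → S.N 0 r a 0 := by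
  intro r hr a ha
  rw [C.N0 r hr a ha 1 (by norm_num), C.N0 r hr a ha 0 (by norm_num)]
  omega

/-- field `E` -/
theorem E' (C : SemC G S T x c u0 u) (W : WC G U T x c) :
    ∀ r < G.R, ∀ a < 4, ∀ k < 6, (S.E r a k ↔ IsT G S r k a) := by
  intro r hr a ha k hk
  rw [C.E r hr a ha k hk, ← isT_iff W.num (W.sg r hr) ha]
  unfold IsT
  exact ⟨fun h i hi => (C.C r hr k hk i hi).trans (h i hi),
    fun h i hi => (C.C r hr k hk i hi).symm.trans (h i hi)⟩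

theorem isT (C : SemC G S T x c u0 u) (W : WC G U T x c) {r a k : ℕ} (hr : r < G.R) (ha : a < 4)
    (hk : k < 6) : IsT G S r k a ↔ T (pt (c r) (u + (k : ℝ))) = pal G x r a :=
  (C.E' W r hr a ha k hk).symm.trans (C.E r hr a ha k hk)

/-- field `absent` -/
theorem absent (C : SemC G S T x c u0 u) (W : WC G U T x c) (M : Mds G T x c) :
    ∀ r < G.R, ∀ a < 4, G.md r a = 1 → ∀ k < 6, ¬ IsT G S r k a := by
  intro r hr a ha hm k hk h
  exact M.one r hr a ha hm _ (dist_pt _ _) ((C.isT W hr ha hk).1 h)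

/-- field `pres` -/
theorem pres (C : SemC G S T x c u0 u) :
    ∀ r < G.R, ∀ a < 4, ∀ k < 6, S.E r a k → S.P r a := by
  intro r hr a ha k hk h
  exact (C.P r hr a ha).2 ⟨_, dist_pt _ _, (C.E r hr a ha k hk).1 h⟩

theorem evc_eq (C : SemC G S T x c u0 u) {r a : ℕ} (hr : r < G.R) (ha : a < 4) :
    {k : ℕ | k < 6 ∧ S.E r a k}.ncard = evc (evN G T x c r a) u :=
  evc_nat fun k => C.E r hr a ha k.val k.isLt

/-- field `cnt` -/
theorem cnt (C : SemC G S T x c u0 u) (W : WC G U T x c) (M : Mds G T x c) (h0 : u0 ≤ u)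
    (h1 : u < u0 + 1) : ∀ r < G.R, ∀ a < 4, 2 ≤ G.md r a →
    (G.md r a = 4 → S.P r a ∧ S.P r (3 - a)) → ∃ c0 : ℕ, (∀ j < 2, S.N 0 r a j ↔ j < c0) ∧
    (∀ j < 2, S.N 1 r a j ↔ j < c0 + {k : ℕ | k < 6 ∧ S.E r a k}.ncard) ∧
    (G.md r a = 2 → c0 + {k : ℕ | k < 6 ∧ S.E r a k}.ncard ≤ 1) ∧
    (G.md r a = 3 → c0 + {k : ℕ | k < 6 ∧ S.E r a k}.ncard ≤ 2) ∧
    (G.md r a = 4 → c0 + {k : ℕ | k < 6 ∧ S.E r a k}.ncard ≤ 2) := by
  intro r hr a ha hm hg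
  rw [C.evc_eq hr ha]
  obtain ⟨hf, hle⟩ := W.fin M hr ha hm fun h5 =>
    ⟨(C.P r hr a ha).1 (hg h5).1, (C.P r hr (3 - a) (by omega)).1 (hg h5).2⟩
  have hN := nev_add_le (evA_finite hf) h0 h1
  rw [nev_period] at hN
  have hN' : nev (evN G T x c r a) u0 u + evc (evN G T x c r a) u ≤
    ({q | T q = pal G x r a} ∩ sphere (c r) 1).ncard := hN
  refine ⟨nev (evN G T x c r a) u0 u, fun j hj => ?_, fun j hj => ?_, fun h5 => ?_, fun h5 => ?_,
    fun _ => ?_⟩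
  · rw [C.N0 r hr a ha j hj]; omega
  · rw [C.N1 r hr a ha j hj]; omega
  · have := M.two r hr a ha h5
    omega
  · omega
  · omega

/-- field `vis`; `L`, `K`: the letters just before and just after the instant -/
theorem vis (C : SemC G S T x c u0 u) (W : WC G U T x c) {L K : ℕ → ℕ → Fin 4}
    (hX0 : ∀ r < G.R, ∀ k < 6, ∀ l, S.X 0 r k l → (L r k).val = l)
    (hX1 : ∀ r < G.R, ∀ k < 6, ∀ l, S.X 1 r k l → (K r k).val = l)
    (hL : ∀ r < G.R, ∀ k : ℕ, k < 6 → LF T (c r) (x (G.sg r 0)) (x (G.sg r 1)) (x (G.sg r 2))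
      (x (G.sg r 3)) (x (G.sg r 4)) (x (G.sg r 5)) (u + (k : ℝ)) (L r k))
    (hK : ∀ r < G.R, ∀ k : ℕ, k < 6 → RF T (c r) (x (G.sg r 0)) (x (G.sg r 1)) (x (G.sg r 2))
      (x (G.sg r 3)) (x (G.sg r 4)) (x (G.sg r 5)) (u + (k : ℝ)) (K r k))
    (hv : ∀ r < G.R, ∀ a < 4, 2 ≤ G.md r a → G.md r a = 4) :
    ∀ r < G.R, ∀ a < 4, 2 ≤ G.md r a → (G.md r a = 4 → S.P r a ∧ S.P r (3 - a)) →
    ∀ k < 6, IsT G S r k a →
    ¬ (S.X 0 r k (2 + a / 2) ∧ S.X 1 r k (2 + a / 2)) ∧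
    ¬ (S.X 0 r k (a % 2) ∧ S.X 1 r k (a % 2)) := by
  intro r hr a ha hm hg k hk hT
  have h1 := W.irr.vis_pal W.h4 (W.dpt r hr) (W.nd r hr) ha
    ((C.P r hr (3 - a) (by omega)).1 (hg (hv r hr a ha hm)).2) ((C.isT W hr ha hk).1 hT)
    (hL r hr k hk) (hK r hr k hk)
  refine ⟨fun h2 => h1.1 ⟨hX0 r hr k hk _ h2.1, hX1 r hr k hk _ h2.2⟩, fun h2 =>
    h1.2 ⟨hX0 r hr k hk _ h2.1, hX1 r hr k hk _ h2.2⟩⟩

/-- field `cnt0` of `IF` -/
theorem cnt0 (C : SemC G S T x c u0 u0) : ∀ r < G.R, ∀ a < 4, ∀ j < 2, ¬ S.N 0 r a j := by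
  intro r hr a ha j hj
  rw [C.N0 r hr a ha j hj, nev_self]
  omega

/-- the number of the events before the end of the period -/
theorem total (C : SemC G S T x c u0 (u0 + 1)) {r a j : ℕ} (hr : r < G.R) (ha : a < 4)
    (hj : j < 2) : S.N 0 r a j ↔ j + 1 ≤ ({q | T q = pal G x r a} ∩ sphere (c r) 1).ncard := by
  rw [C.N0 r hr a ha j hj]
  have h1 : nev (evN G T x c r a) u0 (u0 + 1) =
    ({q | T q = pal G x r a} ∩ sphere (c r) 1).ncard := nev_period u0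
  rw [h1]

/-- field `cntend1` of `BF` -/
theorem cntend1 (C : SemC G S T x c u0 (u0 + 1)) (M : Mds G T x c) :
    ∀ r < G.R, ∀ a < 4, 2 ≤ G.md r a → G.md r a ≤ 3 → S.N 0 r a 0 := by
  intro r hr a ha h2 h3
  rw [C.total hr ha (by norm_num)]
  have h5 : G.md r a = 2 ∨ G.md r a = 3 := by omega
  rcases h5 with h5 | h5
  · have := M.two r hr a ha h5
    omega
  · have := M.three r hr a ha h5
    omega

/-- field `cntend2` of `BF` -/
theorem cntend2 (C : SemC G S T x c u0 (u0 + 1)) (M : Mds G T x c) :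
    ∀ r < G.R, ∀ a < 4, G.md r a = 3 → S.N 0 r a 1 := by
  intro r hr a ha h3
  rw [C.total hr ha (by norm_num)]
  have := M.three r hr a ha h3
  omega

/-- field `cntend` of `BF`, with both palettes present -/
theorem cntend (C : SemC G S T x c u0 (u0 + 1)) (W : WC G U T x c) :
    ∀ r < G.R, ∀ a < 4, G.md r a = 4 → S.P r a → S.P r (3 - a) → S.N 0 r a 0 := by
  intro r hr a ha h4 hp hp'
  rw [C.total hr ha (by norm_num)]
  have hf := (W.irr.rule2_pal W.h4 (W.dpt r hr) (W.nd r hr) ha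
    ((C.P r hr (3 - a) (by omega)).1 hp')).1
  obtain ⟨q, hq, hTq⟩ := (C.P r hr a ha).1 hp
  exact (Set.ncard_pos hf).2 ⟨q, hTq, mem_sphere.2 hq⟩

end SemC

end Vale.Agent.P032.R2.H413
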