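import Vale.Agent.P032.R2.H833.VisTop
import Vale.Agent.P032.R2.H413.RuleC

/-!
# P032: rule 2 in the form of the certificates, without bounds on orders

* `Irr.vis_lr413`, `Irr.f_vis413`: the limit letters at a visible end;
* `Irr.rule2_palT`, `Irr.vis_palT`: all palettes.
-/

set_option autoImplicit false

open Set Filter Topology Metric

noncomputable section

namespace Vale.Agent.P032.Six

open S5.H767

variable {U : Fin 6 → Set ℂ} {T : ℂ → Set (Fin 6)} {z q : ℂ} {a b c d e f : Fin 6} {v : ℝ}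

/-- **a visible end**: palette `{a, b, e}`, and a point of the circle has the palette `{c, d, f}` -/
theorem Irr.vis_lr413 (h : Irr U T) (hz : DPt T z a b c d) (nd : [a, b, c, d, e, f].Nodup)
    (hv : T (pt z v) = {a, b, e}) (hq : dist q z = 1) (hTq : T q = {c, d, f}) :
    (LS T z a b c d e f v 2 ∧ RS T z a b c d e f v 0) ∨
      (LS T z a b c d e f v 0 ∧ RS T z a b c d e f v 2) := by
  have C := ctr_of_dpt h hz nd
  obtain ⟨⟨ab, ac, ad, ae, af⟩, ⟨bc, bd, be, bf⟩, ⟨cd, ce, cf⟩, ⟨de, df⟩, ef⟩ := nodup_sep nd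
  have he : e ∉ T z := by rw [hz.pal]; simp [Ne.symm ae, Ne.symm be, Ne.symm ce, Ne.symm de]
  have hf : f ∉ T z := by rw [hz.pal]; simp [Ne.symm af, Ne.symm bf, Ne.symm cf, Ne.symm df]
  have K : Cfg T z (pt z v) q a b c d e f := ⟨hz, dist_pt z v, hq, hv, hTq, he, hf, ef⟩
  obtain ⟨o, E⟩ := K.cend_top h
  -- near `v` the palettes are inside `{a, b, e}`
  have hcont : Continuous fun s : ℝ => pt z s := S5.H767.continuous_pt z
  have hnear : ∀ᶠ s in 𝓝 v, T (pt z s) ⊆ {a, b, e} := by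
    have := hcont.continuousAt.eventually (h.nhd (pt z v))
    rw [hv] at this
    exact this
  -- the letters
  have k2 : ∀ s : ℝ, T (pt z s) = {a, b} → ∀ m, s ∈ Xs T z a b c d e f m → m = 2 :=
    fun s hs m hm => let_ab h nd hs.subset hm
  have k0 : ∀ s : ℝ, T (pt z s) ⊆ {a, b, e} → ¬ ({a, b} : Set (Fin 6)) ⊆ T (pt z s) →
      ∀ m, s ∈ Xs T z a b c d e f m → m = 0 := by
    intro s hs hn m hm
    rcases fin4_cases m with rfl | rfl | rfl | rfl
    · rfl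
    · rcases hs (xs1.1 hm) with h1 | h1 | h1
      exacts [absurd h1.symm af, absurd h1.symm bf, absurd h1.symm ef]
    · exfalso
      refine hn ?_
      rintro i (rfl | hi)
      · exact (xs2 h hm).1
      · rw [mem_singleton_iff] at hi; rw [hi]; exact (xs2 h hm).2
    · rcases hs (xs3 h hm).1 with h1 | h1 | h1
      exacts [absurd h1.symm ac, absurd h1.symm bc, absurd h1 ce]
  have harc := E.arc
  have haft := E.after
  rcases E.o1 with rfl | rfl
  · left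
    refine ⟨LS.of_ev C ?_, RS.of_ev C ?_⟩
    · filter_upwards [ev_before (P := fun x => T x = {a, b}) harc] with s hs
      exact k2 s hs
    · filter_upwards [ev_after (P := fun x => e ∈ T x ∧ ¬ ({a, b} : Set (Fin 6)) ⊆ T x) haft,
        hnear.filter_mono nhdsWithin_le_nhds] with s hs hs2
      exact k0 s hs2 hs.2
  · right
    rw [neg_neg] at harc
    refine ⟨LS.of_ev C ?_, RS.of_ev C ?_⟩
    · filter_upwards [ev_before (P := fun x => e ∈ T x ∧ ¬ ({a, b} : Set (Fin 6)) ⊆ T x) haft,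
        hnear.filter_mono nhdsWithin_le_nhds] with s hs hs2
      exact k0 s hs2 hs.2
    · filter_upwards [ev_after (P := fun x => T x = {a, b}) harc] with s hs
      exact k2 s hs

/-- family `vis` -/
theorem Irr.f_vis413 (h : Irr U T) (hz : DPt T z a b c d) (nd : [a, b, c, d, e, f].Nodup)
    (hv : T (pt z v) = {a, b, e}) (hq : dist q z = 1) (hTq : T q = {c, d, f}) {l m : Fin 4}
    (hl : LF T z a b c d e f v l) (hm : RF T z a b c d e f v m) :
    (l = 2 ∧ m = 0) ∨ (l = 0 ∧ m = 2) := by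
  rcases h.vis_lr413 hz nd hv hq hTq with ⟨h1, h2⟩ | ⟨h1, h2⟩
  · exact Or.inl ⟨h1.eq hl, h2.eq hm⟩
  · exact Or.inr ⟨h1.eq hl, h2.eq hm⟩

/-- **rule 2**, all palettes -/
theorem Irr.rule2_palT (h : Irr U T) (hz : DPt T z a b c d)
    (nd : [a, b, c, d, e, f].Nodup) {n : ℕ} (hn : n < 4)
    (hp : ∃ q, dist q z = 1 ∧ T q = palN a b c d e f (3 - n)) :
    ({q | T q = palN a b c d e f n} ∩ sphere z 1).Finite ∧
      ({q | T q = palN a b c d e f n} ∩ sphere z 1).ncard ≤ 2 := by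
  have key : ∀ {a b c d e f : Fin 6}, DPt T z a b c d → [a, b, c, d, e, f].Nodup →
      (∃ q, dist q z = 1 ∧ T q = {c, d, f}) →
      ({q | T q = {a, b, e}} ∩ sphere z 1).Finite ∧
        ({q | T q = {a, b, e}} ∩ sphere z 1).ncard ≤ 2 := by
    rintro a b c d e f hz nd ⟨q, hq, hTq⟩
    have h1 := h.rule2_ncard_top hz nd hq hTq
    have h2 : ({q | T q = {a, b, e}} ∩ sphere z 1 : Set ℂ) =
        {x : ℂ | dist x z = 1 ∧ T x = {a, b, e}} := by
      ext x
      exact ⟨fun hx => ⟨mem_sphere.1 hx.2, hx.1⟩, fun hx => ⟨hx.2, mem_sphere.2 hx.1⟩⟩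
    rw [h2]
    exact h1
  have h5 : n = 0 ∨ n = 1 ∨ n = 2 ∨ n = 3 := by omega
  rcases h5 with rfl | rfl | rfl | rfl
  · exact key hz nd hp
  · exact key hz (nodup_swap56 nd) hp
  · exact key hz.swap (nodup_swap609 nd) hp
  · exact key hz.swap (nodup_cdabfe nd) hp

/-- **visible ends**, all palettes -/
theorem Irr.vis_palT (h : Irr U T) (hz : DPt T z a b c d)
    (nd : [a, b, c, d, e, f].Nodup) {n : ℕ} (hn : n < 4)
    (hp : ∃ q, dist q z = 1 ∧ T q = palN a b c d e f (3 - n))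
    (hv : T (pt z v) = palN a b c d e f n) {l m : Fin 4}
    (hl : LF T z a b c d e f v l) (hm : RF T z a b c d e f v m) :
    ¬ (l.val = 2 + n / 2 ∧ m.val = 2 + n / 2) ∧ ¬ (l.val = n % 2 ∧ m.val = n % 2) := by
  have h5 : n = 0 ∨ n = 1 ∨ n = 2 ∨ n = 3 := by omega
  rcases h5 with rfl | rfl | rfl | rfl
  · obtain ⟨q, hq, hTq⟩ := hp
    have h1 := h.f_vis413 hz nd hv hq hTq hl hm
    have : ∀ l m : Fin 4, (l = 2 ∧ m = 0) ∨ (l = 0 ∧ m = 2) →
        ¬ (l.val = 2 + 0 / 2 ∧ m.val = 2 + 0 / 2) ∧ ¬ (l.val = 0 % 2 ∧ m.val = 0 % 2) := by decide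
    exact this l m h1
  · obtain ⟨q, hq, hTq⟩ := hp
    have h1 := h.f_vis413 hz (nodup_swap56 nd) hv hq hTq hl.sw56 hm.sw56
    have : ∀ l m : Fin 4, (sw01 l = 2 ∧ sw01 m = 0) ∨ (sw01 l = 0 ∧ sw01 m = 2) →
        ¬ (l.val = 2 + 1 / 2 ∧ m.val = 2 + 1 / 2) ∧ ¬ (l.val = 1 % 2 ∧ m.val = 1 % 2) := by decide
    exact this l m h1
  · obtain ⟨q, hq, hTq⟩ := hp
    have h1 := h.f_vis413 hz.swap (nodup_swap609 nd) hv hq hTq hl.sw23 hm.sw23
    have : ∀ l m : Fin 4, (sw23 l = 2 ∧ sw23 m = 0) ∨ (sw23 l = 0 ∧ sw23 m = 2) →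
        ¬ (l.val = 2 + 2 / 2 ∧ m.val = 2 + 2 / 2) ∧ ¬ (l.val = 2 % 2 ∧ m.val = 2 % 2) := by decide
    exact this l m h1
  · obtain ⟨q, hq, hTq⟩ := hp
    have h1 := h.f_vis413 hz.swap (nodup_cdabfe nd) hv hq hTq hl.sw23.sw56 hm.sw23.sw56
    have : ∀ l m : Fin 4, (sw01 (sw23 l) = 2 ∧ sw01 (sw23 m) = 0) ∨
        (sw01 (sw23 l) = 0 ∧ sw01 (sw23 m) = 2) →
        ¬ (l.val = 2 + 3 / 2 ∧ m.val = 2 + 3 / 2) ∧ ¬ (l.val = 3 % 2 ∧ m.val = 3 % 2) := by decide
    exact this l m h1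

end Vale.Agent.P032.Six
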