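import Vale.Agent.P032.R2.H264.Wd
import Vale.Agent.P032.R2.H413.FieldC
import Vale.Agent.P032.R2.H413.RuleT

/-!
# P032: fields of `semAt`

The fields `cntmono` of `SF`; `E`, `absent`, `pres`, `cnt`, `vis`, `first`, `anchor`, `done`, `ident`,
`identD` of `TF`; `cnt0`, `done0`, `first` of `IF`; `cntend1`, `cntend2`, `cntend`, `doneend`, `first` of
`BF`, for the valuation `semAt`.

* `Cnt G T D`: the numbers of points (modes `1, 2, 3`, rule two), `WD.cnt_top`: rule two holds;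
* `Ltr G T D u L K`: the letters of the selections, `WD.vis`.
-/

set_option autoImplicit false

open Set Filter Topology Metric

noncomputable section

namespace Vale.Agent.P032.R2.H413

open Vale.Agent.P032.Six Vale.Agent.P032.S5.H767 Vale.Agent.P032.R2.H741.Tp
open Vale.Agent.P032.R2.H264 (Dat Sl XL lm pp At Pr okN semAt Wd l4 l4_val)

variable {U : Fin 6 → Set ℂ} {T : ℂ → Set (Fin 6)} {G : RD} {D : Dat} {L0 L K : Sl G} {u : ℝ}

/-! ### names -/

/-- the points with a palette number in terms of the palette -/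
theorem at_eq (hx : Num D.x) {r a : ℕ} (hsg : ∀ j < 6, G.sg r j < 6) (ha : a < 4) :
    At T G D r a = {q | T q = pal G D.x r a} := by
  ext q
  exact isT_iff hx hsg ha

theorem smq_iff {a b c d : ℕ} : smq a b c d = true ↔ (a = c ∧ b = d) ∨ (a = d ∧ b = c) := by
  unfold smq
  simp [Bool.or_eq_true, Bool.and_eq_true, Nat.beq_eq]

/-- equal pairs: the same two-pair point -/
theorem dpt_smp {x : ℕ → Fin 6} {z : ℂ} {a b c d a' b' c' d' : ℕ}
    (h : smp a b c d a' b' c' d' = true) :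
    DPt T z (x a) (x b) (x c) (x d) ↔ DPt T z (x a') (x b') (x c') (x d') := by
  unfold smp at h
  rw [Bool.or_eq_true, Bool.and_eq_true, Bool.and_eq_true, smq_iff, smq_iff, smq_iff, smq_iff] at h
  rcases h with ⟨h1 | h1, h2 | h2⟩ | ⟨h1 | h1, h2 | h2⟩ <;>
    (obtain ⟨rfl, rfl⟩ := h1; obtain ⟨rfl, rfl⟩ := h2)
  · exact Iff.rfl
  · exact ⟨fun h => h.swap34, fun h => h.swap34⟩
  · exact ⟨fun h => h.swap12, fun h => h.swap12⟩
  · exact ⟨fun h => h.swap12.swap34, fun h => h.swap12.swap34⟩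
  · exact ⟨fun h => h.swap, fun h => h.swap⟩
  · exact ⟨fun h => h.swap.swap12, fun h => h.swap12.swap⟩
  · exact ⟨fun h => h.swap.swap34, fun h => h.swap34.swap⟩
  · exact ⟨fun h => h.swap.swap12.swap34, fun h => h.swap34.swap12.swap⟩

/-! ### positions -/

theorem pp_tr (D : Dat) (r s k : ℕ) (u : ℝ) : pp D s k u = D.c s + (pp D r k u - D.c r) :=
  pt_tr _ _ _

theorem pp_three (D : Dat) (r k : ℕ) (u : ℝ) :
    pp D r ((k + 3) % 6) u = 2 * D.c r - pp D r k u := by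
  unfold pp
  rw [pt_add_nat_mod]
  have e : u + ((k + 3 : ℕ) : ℝ) = u + (k : ℝ) + 3 := by push_cast; ring
  rw [e, pt_three]

/-- a contact, read on either ring -/
theorem ct_pp {r s k : ℕ} (h : CT G (semAt U T G D L0 u L K) r s k) : pp D r k u = D.c s := by
  unfold CT at h
  split_ifs at h
  · exact h
  · have h1 : pp D s ((k + 3) % 6) u = D.c r := h
    rw [pp_three] at h1
    rw [pp_tr D s r]
    linear_combination -h1

/-! ### contacts -/

/-- field `first` of `TF` -/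
theorem first_T : ¬ (semAt U T G D L0 u L K).F 1 := fun h => absurd h.1 (by norm_num)

/-- field `first` of `IF` -/
theorem first_I : (semAt U T G D L0 D.u0 L K).F 0 := ⟨rfl, le_rfl⟩

/-- field `first` of `BF` -/
theorem first_B : ¬ (semAt U T G D L0 (D.u0 + 1) L K).F 0 := fun h => by
  have := h.2
  linarith

/-- field `anchor` of `TF` -/
theorem anchor (hA : ∀ r < G.R, ∀ s < G.R, G.adj r s = true → ∀ m < 6, G.an r s = m + 1 →
      pp D r m D.u0 = D.c s) (h0 : D.u0 ≤ u) (h1 : u < D.u0 + 1) :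
    ∀ r < G.R, ∀ s < G.R, G.adj r s = true → ∀ m < 6, G.an r s = m + 1 → ∀ k < 6,
      ((semAt U T G D L0 u L K).ct r s k ↔ k = m ∧ (semAt U T G D L0 u L K).F 0) := by
  intro r hr s hs had m hm han k hk
  have h2 : pt (D.c r) (D.u0 + ((⟨m, hm⟩ : Fin 6).val : ℝ)) = D.c s := hA r hr s hs had m hm han
  have h3 := anchor_iff (k := (⟨k, hk⟩ : Fin 6)) h2 h0 h1
  have h4 : (semAt U T G D L0 u L K).ct r s k ↔
      pt (D.c r) (u + ((⟨k, hk⟩ : Fin 6).val : ℝ)) = D.c s := Iff.rfl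
  rw [h4, h3, Fin.mk.injEq]
  constructor
  · rintro ⟨h5, h6⟩
    exact ⟨h6, rfl, h5.le⟩
  · rintro ⟨h5, -, h6⟩
    exact ⟨le_antisymm h6 h0, h5⟩

/-- field `done` of `TF` -/
theorem done (h0 : D.u0 ≤ u) (h1 : u < D.u0 + 1) : ∀ r < G.R, ∀ s < G.R, G.adj r s = true →
    G.an r s = 0 →
    ((semAt U T G D L0 u L K).dn 1 r s ↔
      (semAt U T G D L0 u L K).dn 0 r s ∨ ∃ k < 6, (semAt U T G D L0 u L K).ct r s k) ∧
    (∀ k < 6, (semAt U T G D L0 u L K).dn 0 r s → ¬ (semAt U T G D L0 u L K).ct r s k) ∧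
    (∀ k < 6, ∀ m < 6, (semAt U T G D L0 u L K).ct r s k →
      (semAt U T G D L0 u L K).ct r s m → k = m) := by
  intro r _ s _ _ _
  have hf : EvF (evA (D.c r) {D.c s}) := evA_finite single_fin
  have hct : ∀ {k : ℕ} (hk : k < 6), (semAt U T G D L0 u L K).ct r s k →
      (u, (⟨k, hk⟩ : Fin 6)) ∈ evA (D.c r) {D.c s} := fun _ h => h
  have hd0 : (semAt U T G D L0 u L K).dn 0 r s ↔
      1 ≤ nev (evA (D.c r) {D.c s}) D.u0 u := by
    show 1 ≤ nev (evA (D.c r) {D.c s}) D.u0 u + (if (0 : ℕ) = 0 then 0 else _) ↔ _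
    rw [if_pos rfl, add_zero]
  have hd1 : (semAt U T G D L0 u L K).dn 1 r s ↔
      1 ≤ nev (evA (D.c r) {D.c s}) D.u0 u + evc (evA (D.c r) {D.c s}) u := by
    show 1 ≤ nev (evA (D.c r) {D.c s}) D.u0 u + (if (1 : ℕ) = 0 then 0 else _) ↔ _
    rw [if_neg (by norm_num)]
  have hle := nev_add_le hf h0 h1
  rw [nev_period] at hle
  have hle2 := single_ncard_le (z := D.c r) (q := D.c s)
  rw [hd0, hd1]
  refine ⟨⟨fun h => ?_, fun h => ?_⟩, fun k hk h h2 => ?_, fun k hk m hm h2 h3 => ?_⟩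
  · by_cases h5 : 1 ≤ nev (evA (D.c r) {D.c s}) D.u0 u
    · exact Or.inl h5
    · obtain ⟨k, h6⟩ := evc_one_le (E := evA (D.c r) {D.c s}) (u := u) (by omega)
      exact Or.inr ⟨k.val, k.isLt, h6⟩
  · rcases h with h | ⟨k, hk, h⟩
    · omega
    · have := evc_pos (hct hk h)
      omega
  · have := evc_pos (hct hk h2)
    omega
  · by_contra hne
    have := evc_two (fun h => hne (Fin.mk.inj h)) (hct hk h2) (hct hm h3)
    omega

/-- field `done0` of `IF` -/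
theorem done0 : ∀ r < G.R, ∀ s < G.R, ¬ (semAt U T G D L0 D.u0 L K).dn 0 r s := by
  intro r _ s _ h
  have h1 : 1 ≤ nev (evA (D.c r) {D.c s}) D.u0 D.u0 + (if (0 : ℕ) = 0 then 0 else _) := h
  rw [if_pos rfl, nev_self] at h1
  omega

/-- field `doneend` of `BF` -/
theorem doneend (hadj : ∀ r < G.R, ∀ s < G.R, G.adj r s = true → dist (D.c s) (D.c r) = 1) :
    ∀ r < G.R, ∀ s < G.R, G.adj r s = true → G.an r s = 0 →
      (semAt U T G D L0 (D.u0 + 1) L K).dn 0 r s := by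
  intro r hr s hs had _
  show 1 ≤ nev (evA (D.c r) {D.c s}) D.u0 (D.u0 + 1) + (if (0 : ℕ) = 0 then 0 else _)
  rw [if_pos rfl, nev_period, add_zero,
    inter_eq_left.2 (by rintro x rfl; exact mem_sphere.2 (hadj r hr s hs had)),
    Set.ncard_singleton]

/-- field `ident` of `TF` -/
theorem ident : ∀ r < G.R, ∀ j < G.idn r, ∀ k < 6,
    (CT G (semAt U T G D L0 u L K) r (G.id2 r j) k → ∀ i < 6,
      ((semAt U T G D L0 u L K).C (G.id1 r j) k i ↔ (semAt U T G D L0 u L K).U r j i)) ∧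
    (CT G (semAt U T G D L0 u L K) r (G.id1 r j) k → ∀ i < 6,
      ((semAt U T G D L0 u L K).C (G.id2 r j) k i ↔ (semAt U T G D L0 u L K).U r j i)) := by
  intro r _ j _ k _
  refine ⟨fun h i _ => ?_, fun h i _ => ?_⟩
  · have h1 : pp D (G.id1 r j) k u = D.c (G.id1 r j) + D.c (G.id2 r j) - D.c r := by
      rw [pp_tr D r, ct_pp h]; ring
    show D.x i ∈ T (pp D (G.id1 r j) k u) ↔ D.x i ∈ T _
    rw [h1]
  · have h1 : pp D (G.id2 r j) k u = D.c (G.id1 r j) + D.c (G.id2 r j) - D.c r := by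
      rw [pp_tr D r, ct_pp h]; ring
    show D.x i ∈ T (pp D (G.id2 r j) k u) ↔ D.x i ∈ T _
    rw [h1]

/-- field `identD` of `TF` -/
theorem identD : ∀ r < G.R, ∀ j < G.idn r, ∀ k < 6, ∀ w < 16,
    (CT G (semAt U T G D L0 u L K) r (G.id2 r j) k →
      ((semAt U T G D L0 u L K).D (G.id1 r j) k w ↔ (semAt U T G D L0 u L K).V r j w)) ∧
    (CT G (semAt U T G D L0 u L K) r (G.id1 r j) k → ∀ w' < 16,
      smp (pc G (G.id1 r j) w 0) (pc G (G.id1 r j) w 1) (pc G (G.id1 r j) w 2)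
        (pc G (G.id1 r j) w 3) (pc G (G.id2 r j) w' 0) (pc G (G.id2 r j) w' 1)
        (pc G (G.id2 r j) w' 2) (pc G (G.id2 r j) w' 3) = true →
      ((semAt U T G D L0 u L K).D (G.id2 r j) k w' ↔ (semAt U T G D L0 u L K).V r j w)) := by
  intro r _ j _ k _ w _
  refine ⟨fun h => ?_, fun h w' _ hs => ?_⟩
  · have h1 : pp D (G.id1 r j) k u = D.c (G.id1 r j) + D.c (G.id2 r j) - D.c r := by
      rw [pp_tr D r, ct_pp h]; ring
    show DPt T (pp D (G.id1 r j) k u) _ _ _ _ ↔ DPt T _ _ _ _ _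
    rw [h1]
  · have h1 : pp D (G.id2 r j) k u = D.c (G.id1 r j) + D.c (G.id2 r j) - D.c r := by
      rw [pp_tr D r, ct_pp h]; ring
    show DPt T (pp D (G.id2 r j) k u) _ _ _ _ ↔ DPt T _ _ _ _ _
    rw [h1]
    exact (dpt_smp hs).symm

/-! ### numbers of points -/

/-- the numbers of points: what the modes mean -/
structure Cnt (G : RD) (T : ℂ → Set (Fin 6)) (D : Dat) : Prop where
  one : ∀ r < G.R, ∀ a < 4, G.md r a = 1 → ∀ q, dist q (D.c r) = 1 → q ∉ At T G D r a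
  two : ∀ r < G.R, ∀ a < 4, G.md r a = 2 → (At T G D r a ∩ sphere (D.c r) 1).ncard = 1
  three : ∀ r < G.R, ∀ a < 4, G.md r a = 3 → (At T G D r a ∩ sphere (D.c r) 1).ncard = 2
  rule : ∀ r < G.R, ∀ a < 4, G.md r a = 4 → Pr T G D r (3 - a) →
    (At T G D r a ∩ sphere (D.c r) 1).Finite ∧ (At T G D r a ∩ sphere (D.c r) 1).ncard ≤ 2
  le : ∀ r < G.R, ∀ a < 4, G.md r a ≤ 4

/-- the world: the centres are two-pair points with the names of the rings -/
structure WD (G : RD) (U : Fin 6 → Set ℂ) (T : ℂ → Set (Fin 6)) (D : Dat) : Prop where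
  irr : Irr U T
  num : Num D.x
  sg : ∀ r < G.R, ∀ j < 6, G.sg r j < 6
  dpt : ∀ r < G.R, DPt T (D.c r) (D.x (G.sg r 0)) (D.x (G.sg r 1)) (D.x (G.sg r 2))
    (D.x (G.sg r 3))
  nd : ∀ r < G.R, [D.x (G.sg r 0), D.x (G.sg r 1), D.x (G.sg r 2), D.x (G.sg r 3),
    D.x (G.sg r 4), D.x (G.sg r 5)].Nodup

theorem num_of_inj {x : ℕ → Fin 6} (hx : ∀ i < 6, ∀ j < 6, x i = x j → i = j) : Num x := by
  refine ⟨hx, fun c => ?_⟩
  have h1 : Function.Injective fun i : Fin 6 => x i.val := fun i j h =>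
    Fin.ext (hx _ i.isLt _ j.isLt h)
  obtain ⟨i, hi⟩ := (Finite.injective_iff_surjective.1 h1) c
  exact ⟨i.val, i.isLt, hi⟩

theorem WD.of_wd (W : Wd U T G D) : WD G U T D where
  irr := W.wt.irr
  num := num_of_inj W.xi
  sg r hr := W.sgl r (by omega)
  dpt r hr := W.dpt r (by omega)
  nd r hr := W.nd (by omega)

/-- rule two -/
theorem WD.cnt_top (W : WD G U T D) (hmd : ∀ r < G.R, ∀ a < 4, G.md r a = 0 ∨ G.md r a = 4) : Cnt G T D := by
  refine ⟨fun r hr a ha h => ?_, fun r hr a ha h => ?_, fun r hr a ha h => ?_,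
    fun r hr a ha _ hp => ?_, fun r hr a ha => ?_⟩
  · rcases hmd r hr a ha with h1 | h1 <;> omega
  · rcases hmd r hr a ha with h1 | h1 <;> omega
  · rcases hmd r hr a ha with h1 | h1 <;> omega
  · unfold H264.Pr at hp
    rw [at_eq W.num (W.sg r hr) (by omega)] at hp
    rw [at_eq W.num (W.sg r hr) ha]
    exact W.irr.rule2_palT (W.dpt r hr) (W.nd r hr) ha hp
  · rcases hmd r hr a ha with h1 | h1 <;> omega

theorem Cnt.fin (M : Cnt G T D) {r a : ℕ} (hr : r < G.R) (ha : a < 4) (h2 : 2 ≤ G.md r a)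
    (hg : G.md r a = 4 → Pr T G D r (3 - a)) :
    (At T G D r a ∩ sphere (D.c r) 1).Finite ∧ (At T G D r a ∩ sphere (D.c r) 1).ncard ≤ 2 := by
  have h3 := M.le r hr a ha
  have h5 : G.md r a = 2 ∨ G.md r a = 3 ∨ G.md r a = 4 := by omega
  rcases h5 with h5 | h5 | h5
  · have h6 := M.two r hr a ha h5
    exact ⟨Set.finite_of_ncard_ne_zero (by omega), by omega⟩
  · have h6 := M.three r hr a ha h5
    exact ⟨Set.finite_of_ncard_ne_zero (by omega), by omega⟩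
  · exact M.rule r hr a ha h5 (hg h5)

/-- the guard of rule two -/
def Grd (G : RD) (T : ℂ → Set (Fin 6)) (D : Dat) (r a : ℕ) : Prop :=
  G.md r a = 4 → Pr T G D r a ∧ Pr T G D r (3 - a)

/-- field `cntmono` of `SF` -/
theorem cntmono : ∀ r < G.R, ∀ a < 4, 2 ≤ G.md r a → (semAt U T G D L0 u L K).N 0 r a 1 →
    (semAt U T G D L0 u L K).N 0 r a 0 := by
  rintro r _ a _ _ ⟨h1, h2⟩
  exact ⟨h1, by omega⟩

/-- field `E` of `TF` -/
theorem E' : ∀ r < G.R, ∀ a < 4, ∀ k < 6, ((semAt U T G D L0 u L K).E r a k ↔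
    IsT G (semAt U T G D L0 u L K) r k a ∧ (G.md r a = 4 →
      (semAt U T G D L0 u L K).P r a ∧ (semAt U T G D L0 u L K).P r (3 - a))) :=
  fun _ _ _ _ _ _ => ⟨fun h => ⟨h.2, h.1⟩, fun h => ⟨h.2, h.1⟩⟩

/-- field `absent` of `TF` -/
theorem absent (M : Cnt G T D) : ∀ r < G.R, ∀ a < 4, G.md r a = 1 → ∀ k < 6,
    ¬ IsT G (semAt U T G D L0 u L K) r k a := by
  intro r hr a ha hm k _ h
  exact M.one r hr a ha hm (pp D r k u) (dist_pt _ _) h

/-- field `pres` of `TF` -/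
theorem pres' : ∀ r < G.R, ∀ a < 4, G.md r a = 4 → ∀ k < 6,
    IsT G (semAt U T G D L0 u L K) r k a → (semAt U T G D L0 u L K).P r a :=
  fun r _ _ _ _ k _ h => ⟨pp D r k u, dist_pt _ _, h⟩

theorem n0_iff {r a j : ℕ} : (semAt U T G D L0 u L K).N 0 r a j ↔
    okN T G D r a ∧ j + 1 ≤ nev (evA (D.c r) (At T G D r a)) D.u0 u := by
  show (_ ∧ j + 1 ≤ _ + (if (0 : ℕ) = 0 then 0 else _)) ↔ _
  rw [if_pos rfl, add_zero]

theorem n1_iff {r a j : ℕ} : (semAt U T G D L0 u L K).N 1 r a j ↔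
    okN T G D r a ∧ j + 1 ≤ nev (evA (D.c r) (At T G D r a)) D.u0 u +
      evc (evA (D.c r) (At T G D r a)) u := by
  show (_ ∧ j + 1 ≤ _ + (if (1 : ℕ) = 0 then 0 else _)) ↔ _
  rw [if_neg (by norm_num)]

/-- field `cnt` of `TF` -/
theorem cnt (M : Cnt G T D) (h0 : D.u0 ≤ u) (h1 : u < D.u0 + 1) :
    ∀ r < G.R, ∀ a < 4, 2 ≤ G.md r a →
    ∃ c0 : ℕ, (∀ j < 2, (semAt U T G D L0 u L K).N 0 r a j ↔ j < c0) ∧
    (∀ j < 2, (semAt U T G D L0 u L K).N 1 r a j ↔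
      j < c0 + {k : ℕ | k < 6 ∧ (semAt U T G D L0 u L K).E r a k}.ncard) ∧
    (G.md r a = 2 → c0 + {k : ℕ | k < 6 ∧ (semAt U T G D L0 u L K).E r a k}.ncard ≤ 1) ∧
    (G.md r a = 3 → c0 + {k : ℕ | k < 6 ∧ (semAt U T G D L0 u L K).E r a k}.ncard ≤ 2) ∧
    (G.md r a = 4 → c0 + {k : ℕ | k < 6 ∧ (semAt U T G D L0 u L K).E r a k}.ncard ≤ 2) := by
  intro r hr a ha hm
  by_cases hg : Grd G T D r a
  · have hE : {k : ℕ | k < 6 ∧ (semAt U T G D L0 u L K).E r a k}.ncard =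
        evc (evA (D.c r) (At T G D r a)) u :=
      evc_nat fun k => ⟨fun h => h.2, fun h => ⟨hg, h⟩⟩
    rw [hE]
    obtain ⟨hf, hle⟩ := M.fin hr ha hm fun h5 => (hg h5).2
    have hok : okN T G D r a := ⟨hg, hf⟩
    have hN := nev_add_le (evA_finite hf) h0 h1
    rw [nev_period] at hN
    refine ⟨nev (evA (D.c r) (At T G D r a)) D.u0 u, fun j hj => ?_, fun j hj => ?_,
      fun h5 => ?_, fun h5 => ?_, fun _ => ?_⟩
    · rw [n0_iff]
      exact ⟨fun h => h.2, fun h => ⟨hok, h⟩⟩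
    · rw [n1_iff]
      exact ⟨fun h => h.2, fun h => ⟨hok, h⟩⟩
    · have := M.two r hr a ha h5
      omega
    · omega
    · omega
  · have hE : {k : ℕ | k < 6 ∧ (semAt U T G D L0 u L K).E r a k}.ncard = 0 := by
      have h2 : {k : ℕ | k < 6 ∧ (semAt U T G D L0 u L K).E r a k} = ∅ := by
        ext k
        exact ⟨fun h => hg h.2.1, fun h => h.elim⟩
      rw [h2, Set.ncard_empty]
    rw [hE]
    refine ⟨0, fun j hj => ?_, fun j hj => ?_, fun _ => ?_, fun _ => ?_, fun _ => ?_⟩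
    · exact ⟨fun h => (hg h.1.1).elim, fun h => absurd h (Nat.not_lt_zero _)⟩
    · exact ⟨fun h => (hg h.1.1).elim, fun h => absurd h (Nat.not_lt_zero _)⟩
    all_goals omega

/-- field `cnt0` of `IF` -/
theorem cnt0 : ∀ r < G.R, ∀ a < 4, ∀ j < 2, ¬ (semAt U T G D L0 D.u0 L K).N 0 r a j := by
  intro r _ a _ j _ h
  have h1 := (n0_iff.1 h).2
  rw [nev_self] at h1
  omega

theorem total {r a j : ℕ} : (semAt U T G D L0 (D.u0 + 1) L K).N 0 r a j ↔
    okN T G D r a ∧ j + 1 ≤ (At T G D r a ∩ sphere (D.c r) 1).ncard := by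
  rw [n0_iff, nev_period]

/-- field `cntend1` of `BF` -/
theorem cntend1 (M : Cnt G T D) : ∀ r < G.R, ∀ a < 4, 2 ≤ G.md r a → G.md r a ≤ 3 →
    (semAt U T G D L0 (D.u0 + 1) L K).N 0 r a 0 := by
  intro r hr a ha h2 h3
  rw [total]
  have h5 : G.md r a = 2 ∨ G.md r a = 3 := by omega
  rcases h5 with h5 | h5
  · have := M.two r hr a ha h5
    exact ⟨⟨fun h => by omega, Set.finite_of_ncard_ne_zero (by omega)⟩, by omega⟩
  · have := M.three r hr a ha h5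
    exact ⟨⟨fun h => by omega, Set.finite_of_ncard_ne_zero (by omega)⟩, by omega⟩

/-- field `cntend2` of `BF` -/
theorem cntend2 (M : Cnt G T D) : ∀ r < G.R, ∀ a < 4, G.md r a = 3 →
    (semAt U T G D L0 (D.u0 + 1) L K).N 0 r a 1 := by
  intro r hr a ha h3
  rw [total]
  have := M.three r hr a ha h3
  exact ⟨⟨fun h => by omega, Set.finite_of_ncard_ne_zero (by omega)⟩, by omega⟩

/-- field `cntend` of `BF`, both palettes present -/
theorem cntend (M : Cnt G T D) : ∀ r < G.R, ∀ a < 4, G.md r a = 4 →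
    (semAt U T G D L0 (D.u0 + 1) L K).P r a → (semAt U T G D L0 (D.u0 + 1) L K).P r (3 - a) →
    (semAt U T G D L0 (D.u0 + 1) L K).N 0 r a 0 := by
  intro r hr a ha h4 hp hp'
  rw [total]
  have hf := (M.rule r hr a ha h4 hp').1
  obtain ⟨q, hq, hTq⟩ := hp
  exact ⟨⟨fun _ => ⟨⟨q, hq, hTq⟩, hp'⟩, hf⟩, (Set.ncard_pos hf).2 ⟨q, hTq, mem_sphere.2 hq⟩⟩

/-! ### the letters at the counted points -/

/-- the letters of a selection are one-sided letters of the circle -/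
structure Ltr (G : RD) (T : ℂ → Set (Fin 6)) (D : Dat) (u : ℝ) (L K : Sl G) : Prop where
  left : ∀ r < G.R, ∀ (hr : r < G.R + G.Y) (k : ℕ) (hk : k < 6), LF T (D.c r) (D.x (G.sg r 0))
    (D.x (G.sg r 1)) (D.x (G.sg r 2)) (D.x (G.sg r 3)) (D.x (G.sg r 4)) (D.x (G.sg r 5))
    (u + (k : ℝ)) (l4 (L (⟨r, hr⟩, ⟨k, hk⟩)))
  right : ∀ r < G.R, ∀ (hr : r < G.R + G.Y) (k : ℕ) (hk : k < 6), RF T (D.c r) (D.x (G.sg r 0))
    (D.x (G.sg r 1)) (D.x (G.sg r 2)) (D.x (G.sg r 3)) (D.x (G.sg r 4)) (D.x (G.sg r 5))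
    (u + (k : ℝ)) (l4 (K (⟨r, hr⟩, ⟨k, hk⟩)))

/-- field `vis` of `TF` -/
theorem WD.vis (W : WD G U T D) (hL : Ltr G T D u L K)
    (hv : ∀ r < G.R, ∀ a < 4, 2 ≤ G.md r a → G.md r a = 4) :
    ∀ r < G.R, ∀ a < 4, 2 ≤ G.md r a →
    (G.md r a = 4 → (semAt U T G D L0 u L K).P r a ∧ (semAt U T G D L0 u L K).P r (3 - a)) →
    ∀ k < 6, IsT G (semAt U T G D L0 u L K) r k a →
    ¬ ((semAt U T G D L0 u L K).X 0 r k (2 + a / 2) ∧
      (semAt U T G D L0 u L K).X 1 r k (2 + a / 2)) ∧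
    ¬ ((semAt U T G D L0 u L K).X 0 r k (a % 2) ∧ (semAt U T G D L0 u L K).X 1 r k (a % 2)) := by
  intro r hr a ha hm hg k hk hT
  have hp := (hg (hv r hr a ha hm)).2
  have hp' : ∃ q, dist q (D.c r) = 1 ∧ q ∈ At T G D r (3 - a) := hp
  have hT' : pp D r k u ∈ At T G D r a := hT
  rw [at_eq W.num (W.sg r hr) (by omega)] at hp'
  rw [at_eq W.num (W.sg r hr) ha] at hT'
  have hr' : r < G.R + G.Y := by omega
  have h1 := W.irr.vis_palT (W.dpt r hr) (W.nd r hr) ha hp' hT' (hL.left r hr hr' k hk)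
    (hL.right r hr hr' k hk)
  have hX0 : ∀ l, (semAt U T G D L0 u L K).X 0 r k l → (l4 (L (⟨r, hr'⟩, ⟨k, hk⟩))).val = l := by
    intro l h
    have h2 : if (0 : ℕ) = 0 then XL L r k l else XL K r k l := h
    rw [if_pos rfl] at h2
    obtain ⟨_, _, h3⟩ := h2
    rw [l4_val]; exact h3
  have hX1 : ∀ l, (semAt U T G D L0 u L K).X 1 r k l → (l4 (K (⟨r, hr'⟩, ⟨k, hk⟩))).val = l := by
    intro l h
    have h2 : if (1 : ℕ) = 0 then XL L r k l else XL K r k l := h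
    rw [if_neg (by norm_num)] at h2
    obtain ⟨_, _, h3⟩ := h2
    rw [l4_val]; exact h3
  exact ⟨fun h2 => h1.1 ⟨hX0 _ h2.1, hX1 _ h2.2⟩, fun h2 => h1.2 ⟨hX0 _ h2.1, hX1 _ h2.2⟩⟩

end Vale.Agent.P032.R2.H413
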