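import Vale.Agent.P032.R2.H413.SemF

/-!
# P032: fields of `semAt`, contacts of two rings

The fields `ctC`, `ctD`, `same`, `sameH`, `sameD` of `TF` for the valuation `semAt`.
-/

set_option autoImplicit false

open Set Filter Topology Metric

noncomputable section

namespace Vale.Agent.P032.R2.H413

open Vale.Agent.P032.Six Vale.Agent.P032.S5.H767 Vale.Agent.P032.R2.H741.Tp
open Vale.Agent.P032.R2.H264 (Dat Sl XL lm pp At okN semAt)

variable {U : Fin 6 → Set ℂ} {T : ℂ → Set (Fin 6)} {G : RD} {D : Dat} {L0 L K : Sl G} {u : ℝ}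
  {r s k : ℕ}

theorem pp_add (D : Dat) (r k j : ℕ) (u : ℝ) :
    pp D r ((k + j) % 6) u = pt (D.c r) (u + (k : ℝ) + (j : ℝ)) := by
  unfold pp
  rw [pt_add_nat_mod]
  congr 1
  push_cast
  ring

/-- the point `(r, k + 1)` is `(s, k + 2)` -/
theorem pp_same1 (h : pp D r k u = D.c s) :
    pp D r ((k + 1) % 6) u = pp D s ((k + 2) % 6) u := by
  rw [pp_tr D r s, pp_add, pp_add]
  have h1 := pt_sum (D.c r) (u + (k : ℝ))
  have h2 : pt (D.c r) (u + (k : ℝ)) = D.c s := h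
  push_cast
  rw [h2] at h1
  linear_combination -h1

/-- the point `(r, k + 5)` is `(s, k + 4)` -/
theorem pp_same5 (h : pp D r k u = D.c s) :
    pp D r ((k + 5) % 6) u = pp D s ((k + 4) % 6) u := by
  rw [pp_tr D r s, pp_add, pp_add]
  have h1 := pt_sum (D.c r) (u + (k : ℝ) + 4)
  have h2 : pt (D.c r) (u + (k : ℝ)) = D.c s := h
  have e1 : u + (k : ℝ) + 4 + 2 = u + (k : ℝ) + 6 := by ring
  have e2 : u + (k : ℝ) + 4 + 1 = u + (k : ℝ) + 5 := by ring
  rw [e1, e2, pt_six, h2] at h1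
  push_cast
  linear_combination -h1

/-- the other centre -/
theorem pp_same3 (h : pp D r k u = D.c s) : pp D s ((k + 3) % 6) u = D.c r := by
  rw [pp_three, pp_tr D r s, h]
  ring

/-- a colour of a two-pair centre -/
theorem WD.mem_cen (W : WD G U T D) (hr : r < G.R) {i : ℕ} (hi : i < 6) :
    D.x i ∈ T (D.c r) ↔ ∃ j < 4, i = G.sg r j := by
  rw [(W.dpt r hr).pal]
  have key : ∀ j < 6, (D.x i = D.x (G.sg r j) ↔ i = G.sg r j) := fun j hj =>
    ⟨fun h => W.num.inj i hi _ (W.sg r hr j hj) h, fun h => by rw [h]⟩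
  simp only [mem_insert_iff, mem_singleton_iff, key 0 (by norm_num), key 1 (by norm_num),
    key 2 (by norm_num), key 3 (by norm_num)]
  constructor
  · rintro (h | h | h | h)
    exacts [⟨0, by norm_num, h⟩, ⟨1, by norm_num, h⟩, ⟨2, by norm_num, h⟩, ⟨3, by norm_num, h⟩]
  · rintro ⟨j, hj, h⟩
    have h5 : j = 0 ∨ j = 1 ∨ j = 2 ∨ j = 3 := by omega
    rcases h5 with rfl | rfl | rfl | rfl
    exacts [Or.inl h, Or.inr (Or.inl h), Or.inr (Or.inr (Or.inl h)), Or.inr (Or.inr (Or.inr h))]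

/-- field `ctC` of `TF` -/
theorem WD.ctC (W : WD G U T D) : ∀ r < G.R, ∀ s < G.R, G.adj r s = true → ∀ k < 6,
    (semAt U T G D L0 u L K).ct r s k → ∀ i < 6,
    ((semAt U T G D L0 u L K).C r k i ↔ ∃ j < 4, i = G.sg s j) ∧
    ((semAt U T G D L0 u L K).C s ((k + 3) % 6) i ↔ ∃ j < 4, i = G.sg r j) := by
  intro r hr s hs _ k _ h i hi
  have h1 : pp D r k u = D.c s := h
  constructor
  · show D.x i ∈ T (pp D r k u) ↔ _
    rw [h1]
    exact W.mem_cen hs hi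
  · show D.x i ∈ T (pp D s ((k + 3) % 6) u) ↔ _
    rw [pp_same3 h1]
    exact W.mem_cen hr hi

/-- field `ctD` of `TF` -/
theorem WD.ctD (W : WD G U T D) : ∀ r < G.R, ∀ s < G.R, G.adj r s = true → ∀ k < 6,
    (semAt U T G D L0 u L K).ct r s k → ∀ w < 16,
    (smp (pc G r w 0) (pc G r w 1) (pc G r w 2) (pc G r w 3) (G.sg s 0) (G.sg s 1) (G.sg s 2)
      (G.sg s 3) = true → (semAt U T G D L0 u L K).D r k w) ∧
    (smp (pc G s w 0) (pc G s w 1) (pc G s w 2) (pc G s w 3) (G.sg r 0) (G.sg r 1) (G.sg r 2)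
      (G.sg r 3) = true → (semAt U T G D L0 u L K).D s ((k + 3) % 6) w) := by
  intro r hr s hs _ k _ h w _
  have h1 : pp D r k u = D.c s := h
  refine ⟨fun h2 => ?_, fun h2 => ?_⟩
  · show DPt T (pp D r k u) _ _ _ _
    rw [h1]
    exact (dpt_smp h2).2 (W.dpt s hs)
  · show DPt T (pp D s ((k + 3) % 6) u) _ _ _ _
    rw [pp_same3 h1]
    exact (dpt_smp h2).2 (W.dpt r hr)

/-- field `same` of `TF` -/
theorem same : ∀ r < G.R, ∀ s < G.R, G.adj r s = true → ∀ k < 6,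
    (semAt U T G D L0 u L K).ct r s k → ∀ i < 6,
    ((semAt U T G D L0 u L K).C r ((k + 1) % 6) i ↔
      (semAt U T G D L0 u L K).C s ((k + 2) % 6) i) ∧
    ((semAt U T G D L0 u L K).C r ((k + 5) % 6) i ↔
      (semAt U T G D L0 u L K).C s ((k + 4) % 6) i) := by
  intro r _ s _ _ k _ h i _
  constructor
  · show D.x i ∈ T (pp D r ((k + 1) % 6) u) ↔ D.x i ∈ T (pp D s ((k + 2) % 6) u)
    rw [pp_same1 h]
  · show D.x i ∈ T (pp D r ((k + 5) % 6) u) ↔ D.x i ∈ T (pp D s ((k + 4) % 6) u)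
    rw [pp_same5 h]

/-- field `sameH` of `TF` -/
theorem sameH : ∀ r < G.R, ∀ s < G.R, G.adj r s = true → ∀ k < 6,
    (semAt U T G D L0 u L K).ct r s k →
    ((semAt U T G D L0 u L K).H r ((k + 1) % 6) ↔ (semAt U T G D L0 u L K).H s ((k + 2) % 6)) ∧
    ((semAt U T G D L0 u L K).H r ((k + 5) % 6) ↔
      (semAt U T G D L0 u L K).H s ((k + 4) % 6)) := by
  intro r _ s _ _ k _ h
  constructor
  · show (∃ A, Harm T (pp D r ((k + 1) % 6) u) A) ↔ ∃ A, Harm T (pp D s ((k + 2) % 6) u) A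
    rw [pp_same1 h]
  · show (∃ A, Harm T (pp D r ((k + 5) % 6) u) A) ↔ ∃ A, Harm T (pp D s ((k + 4) % 6) u) A
    rw [pp_same5 h]

/-- field `sameD` of `TF` -/
theorem sameD : ∀ r < G.R, ∀ s < G.R, G.adj r s = true → ∀ k < 6,
    (semAt U T G D L0 u L K).ct r s k → ∀ w < 16, ∀ w' < 16,
    smp (pc G r w 0) (pc G r w 1) (pc G r w 2) (pc G r w 3) (pc G s w' 0) (pc G s w' 1)
      (pc G s w' 2) (pc G s w' 3) = true →
    ((semAt U T G D L0 u L K).D r ((k + 1) % 6) w ↔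
      (semAt U T G D L0 u L K).D s ((k + 2) % 6) w') ∧
    ((semAt U T G D L0 u L K).D r ((k + 5) % 6) w ↔
      (semAt U T G D L0 u L K).D s ((k + 4) % 6) w') := by
  intro r _ s _ _ k _ h w _ w' _ hs
  constructor
  · show DPt T (pp D r ((k + 1) % 6) u) _ _ _ _ ↔ DPt T (pp D s ((k + 2) % 6) u) _ _ _ _
    rw [pp_same1 h]
    exact dpt_smp hs
  · show DPt T (pp D r ((k + 5) % 6) u) _ _ _ _ ↔ DPt T (pp D s ((k + 4) % 6) u) _ _ _ _
    rw [pp_same5 h]
    exact dpt_smp hs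

end Vale.Agent.P032.R2.H413
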